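import Mathlib
import Crest.Agent.Lib.S0324.Helper48Assembly

/-!
# Row 211, package P4 (helper48): assembly of S0325, parametrised by the shared interface

`main_of` derives the exact statement of `Crest/Templates/S0325.lean.txt` from the interface facts
of row 211 (P1 `muHE_triangle`; P2 `proj_Kstd_ge`, `proj_Kstd_eq`; P3 `core_cover`), taken here as
hypotheses (`Crest.Agent.S0324.Helper48.TriangleArea` etc.).  The core cover (at most `1.5·10⁷`
cylinders, total area `≤ √2 (1/2 - 10⁻⁹)`) is padded by one filler triangle of exactly the missing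
area and by degenerate triangles, so that the total area is exactly `√2 (1/2 - 13 ε²/6000)`.
-/

set_option autoImplicit false
open MeasureTheory
open scoped ENNReal

namespace Crest.Agent.S0325.Helper48

open Crest.Agent.S0324.Helper48

/-- `toReal` of the area of a triangle. -/
theorem norm_e0 : ‖(!₂[1, 0, 0] : E3)‖ = 1 := by
  simp [EuclideanSpace.norm_eq, Fin.sum_univ_three]

theorem norm_e2 : ‖(!₂[0, 0, 1] : E3)‖ = 1 := by
  simp [EuclideanSpace.norm_eq, Fin.sum_univ_three]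

theorem inner_zero_e2 : inner ℝ (0 : E3) (!₂[0, 0, 1] : E3) = 0 := by
  simp

theorem inner_x_e2 (s : ℝ) : inner ℝ (!₂[s, 0, 0] : E3) (!₂[0, 0, 1] : E3) = 0 := by
  simp [PiLp.inner_apply, Fin.sum_univ_three]

theorem inner_y_e2 (s : ℝ) : inner ℝ (!₂[0, s, 0] : E3) (!₂[0, 0, 1] : E3) = 0 := by
  simp [PiLp.inner_apply, Fin.sum_univ_three]

/-- The filler triangle `conv {0, (s,0,0), (0,s,0)}` has area `s² / 2`. -/
theorem filler_area (htri : TriangleArea) (s : ℝ) :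
    (μHE[2] (convexHull ℝ ({(0 : E3), (!₂[s, 0, 0] : E3), (!₂[0, s, 0] : E3)} : Set E3))).toReal =
      s ^ 2 / 2 := by
  rw [triangle_toReal htri]
  have hg : gram' ((!₂[s, 0, 0] : E3) - 0) ((!₂[0, s, 0] : E3) - 0) = (s ^ 2) ^ 2 := by
    show ‖(!₂[s, 0, 0] : E3) - 0‖ ^ 2 * ‖(!₂[0, s, 0] : E3) - 0‖ ^ 2 -
      (inner ℝ ((!₂[s, 0, 0] : E3) - 0) ((!₂[0, s, 0] : E3) - 0)) ^ 2 = (s ^ 2) ^ 2
    simp only [sub_zero]
    have h1 : ‖(!₂[s, 0, 0] : E3)‖ ^ 2 = s ^ 2 := by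
      rw [EuclideanSpace.norm_eq, Real.sq_sqrt (Finset.sum_nonneg fun i _ => sq_nonneg _)]
      simp [Fin.sum_univ_three]
    have h2 : ‖(!₂[0, s, 0] : E3)‖ ^ 2 = s ^ 2 := by
      rw [EuclideanSpace.norm_eq, Real.sq_sqrt (Finset.sum_nonneg fun i _ => sq_nonneg _)]
      simp [Fin.sum_univ_three]
    have h3 : inner ℝ (!₂[s, 0, 0] : E3) (!₂[0, s, 0] : E3) = 0 := by
      simp [PiLp.inner_apply, Fin.sum_univ_three]
    rw [h1, h2, h3]; ring
  rw [hg, Real.sqrt_sq (sq_nonneg s)]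

/-- A degenerate triangle has area `0`. -/
theorem degenerate_area (htri : TriangleArea) :
    (μHE[2] (convexHull ℝ ({(0 : E3), (0 : E3), (0 : E3)} : Set E3))).toReal = 0 := by
  rw [triangle_toReal htri]
  simp [gram']

theorem main_of (hcore : CoreCover) (htri : TriangleArea) (hge : ProjGe) (heq : ProjEq) :
    ((∀ v : EuclideanSpace ℝ (Fin 3), ‖v‖ = 1 →
        ENNReal.ofReal (Real.sqrt 2) ≤ μHE[2] ((fun y => y - inner ℝ y v • v) '' convexHull ℝ {!₂[1, 0, 0], !₂[-1, 0, 0], !₂[0, 1, Real.sqrt 2], !₂[0, -1, Real.sqrt 2]})) ∧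
      ∃ v : EuclideanSpace ℝ (Fin 3), ‖v‖ = 1 ∧
        μHE[2] ((fun y => y - inner ℝ y v • v) '' convexHull ℝ {!₂[1, 0, 0], !₂[-1, 0, 0], !₂[0, 1, Real.sqrt 2], !₂[0, -1, Real.sqrt 2]}) = ENNReal.ofReal (Real.sqrt 2)) ∧
    ∀ ε : ℝ, 0 < ε → ε ≤ 1 / 2000 →
      ∃ (u p q r : Fin (2 * ⌈2 / ε ^ 2⌉₊) → EuclideanSpace ℝ (Fin 3)),
        (∀ i, ‖u i‖ = 1) ∧
        (∀ i, inner ℝ (p i) (u i) = 0 ∧ inner ℝ (q i) (u i) = 0 ∧ inner ℝ (r i) (u i) = 0) ∧
        convexHull ℝ {!₂[1, 0, 0], !₂[-1, 0, 0], !₂[0, 1, Real.sqrt 2], !₂[0, -1, Real.sqrt 2]} ⊆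
          ⋃ i, {x : EuclideanSpace ℝ (Fin 3) | ∃ b ∈ convexHull ℝ {p i, q i, r i}, ∃ t : ℝ, x = b + t • u i} ∧
        abs ((∑ i, (μHE[2] (convexHull ℝ ({p i, q i, r i} : Set (EuclideanSpace ℝ (Fin 3))))).toReal) / Real.sqrt 2 -
            (1 / 2 - 13 / 6000 * ε ^ 2)) ≤ 2 * ε ^ 4 := by
  refine ⟨⟨fun v hv => hge v hv, ⟨!₂[1, 0, 0], norm_e0, heq⟩⟩, ?_⟩
  intro ε hε hε'
  obtain ⟨m, u, p, q, r, hm, hu, hperp, -, hcov, hsum⟩ := hcore
  have hs2 : (0 : ℝ) < Real.sqrt 2 := Real.sqrt_pos.mpr (by norm_num)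
  set n : ℕ := 2 * ⌈2 / ε ^ 2⌉₊ with hn
  -- the count is large enough
  have hε2 : ε ^ 2 ≤ 1 / 4000000 := by nlinarith
  have hmn : m + 1 ≤ n := by
    have h1 : (8000000 : ℝ) ≤ 2 / ε ^ 2 := by
      rw [le_div_iff₀ (by positivity)]; nlinarith
    have h2 : (8000000 : ℝ) ≤ (⌈2 / ε ^ 2⌉₊ : ℝ) := h1.trans (Nat.le_ceil _)
    have h3 : 8000000 ≤ ⌈2 / ε ^ 2⌉₊ := by exact_mod_cast h2
    omega
  -- target total and core total
  set S0 : ℝ := ∑ i, Real.sqrt (gram' (q i - p i) (r i - p i)) / 2 with hS0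
  set T : ℝ := Real.sqrt 2 * (1 / 2 - 13 / 6000 * ε ^ 2) with hT
  have hST : S0 ≤ T := by
    refine hsum.trans ?_
    rw [hT]
    apply mul_le_mul_of_nonneg_left _ hs2.le
    nlinarith
  set s : ℝ := Real.sqrt (2 * (T - S0)) with hs
  have hs_sq : s ^ 2 / 2 = T - S0 := by
    rw [hs, Real.sq_sqrt (by linarith)]; ring
  -- the padded families, as functions on ℕ
  let U : ℕ → E3 := fun k => if h : k < m then u ⟨k, h⟩ else !₂[0, 0, 1]
  let P : ℕ → E3 := fun k => if h : k < m then p ⟨k, h⟩ else 0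
  let Q : ℕ → E3 := fun k => if h : k < m then q ⟨k, h⟩ else if k = m then !₂[s, 0, 0] else 0
  let R : ℕ → E3 := fun k => if h : k < m then r ⟨k, h⟩ else if k = m then !₂[0, s, 0] else 0
  let A : ℕ → ℝ := fun k => (μHE[2] (convexHull ℝ ({P k, Q k, R k} : Set E3))).toReal
  have hA_lt : ∀ i : Fin m, A i.val = Real.sqrt (gram' (q i - p i) (r i - p i)) / 2 := by
    intro i
    simp only [A, P, Q, R, i.isLt, dif_pos, Fin.eta]
    exact triangle_toReal htri _ _ _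
  have hA_m : A m = T - S0 := by
    simp only [A, P, Q, R, lt_irrefl, dif_neg, not_false_eq_true, if_true]
    rw [filler_area htri, hs_sq]
  have hA_gt : ∀ k, m < k → A k = 0 := by
    intro k hk
    have h1 : ¬ k < m := by omega
    have h2 : ¬ k = m := by omega
    simp only [A, P, Q, R, h1, h2, dif_neg, not_false_eq_true, if_false]
    exact degenerate_area htri
  have hsumA : ∑ i : Fin n, A i.val = T := by
    rw [Fin.sum_univ_eq_sum_range A n, ← Finset.sum_range_add_sum_Ico A hmn,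
      Finset.sum_range_succ, ← Fin.sum_univ_eq_sum_range A m, hA_m]
    have h1 : ∑ i : Fin m, A i.val = S0 := Finset.sum_congr rfl fun i _ => hA_lt i
    have h2 : ∑ k ∈ Finset.Ico (m + 1) n, A k = 0 :=
      Finset.sum_eq_zero fun k hk => hA_gt k (by rw [Finset.mem_Ico] at hk; omega)
    rw [h1, h2]; ring
  refine ⟨fun i => U i.val, fun i => P i.val, fun i => Q i.val, fun i => R i.val, ?_, ?_, ?_, ?_⟩
  · intro i
    by_cases h : i.val < m
    · simp only [U, h, dif_pos]; exact hu _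
    · simp only [U, h, dif_neg, not_false_eq_true]; exact norm_e2
  · intro i
    by_cases h : i.val < m
    · simp only [U, P, Q, R, h, dif_pos]; exact hperp _
    · by_cases h' : i.val = m
      · simp only [U, P, Q, R, h', dif_neg, not_false_eq_true, if_true, lt_irrefl]
        exact ⟨inner_zero_e2, inner_x_e2 s, inner_y_e2 s⟩
      · simp only [U, P, Q, R, h, h', dif_neg, not_false_eq_true, if_false]
        exact ⟨inner_zero_e2, inner_zero_e2, inner_zero_e2⟩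
  · intro x hx
    have hx' := hcov hx
    rw [Set.mem_iUnion] at hx' ⊢
    obtain ⟨i, b, hb, t, ht⟩ := hx'
    have hi : i.val < n := by have := i.isLt; omega
    refine ⟨⟨i.val, hi⟩, b, ?_, t, ?_⟩
    · simp only [P, Q, R, i.isLt, dif_pos, Fin.eta]; exact hb
    · simp only [U, i.isLt, dif_pos, Fin.eta]; exact ht
  · have h0 : (∑ i : Fin n, (μHE[2] (convexHull ℝ ({P i.val, Q i.val, R i.val} : Set E3))).toReal) = T :=
      hsumA
    rw [h0, hT, mul_div_assoc, mul_comm, div_mul_cancel₀ _ hs2.ne', sub_self, abs_zero]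
    positivity

end Crest.Agent.S0325.Helper48
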